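import Vale.Agent.Lib.P243.Planar

/-!
Fibre estimates for a symmetric convex body in `X × ℝ`, `X` a two-dimensional real space.
-/

open MeasureTheory Set Module
open scoped ENNReal

noncomputable section

namespace Vale.Agent.Lib.P243

/-- A continuous function convex on a segment lies below the chord of any upper bounds at its
endpoints, hence so does its integral. -/
theorem convex_integral_le {g : ℝ → ℝ} {p q A B : ℝ} (hpq : p ≤ q)
    (hg : ConvexOn ℝ (Icc p q) g) (hc : Continuous g) (hA : g p ≤ A) (hB : g q ≤ B) :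
    ∫ t in p..q, g t ≤ (q - p) * (A + B) / 2 := by
  rcases hpq.eq_or_lt with rfl | hlt
  · simp
  have hd : 0 < q - p := sub_pos.2 hlt
  have hline : ∀ t ∈ Icc p q, g t ≤ A * ((q - t) / (q - p)) + B * ((t - p) / (q - p)) := by
    intro t ht
    have h1 : 0 ≤ (q - t) / (q - p) := div_nonneg (by linarith [ht.2]) hd.le
    have h2 : 0 ≤ (t - p) / (q - p) := div_nonneg (by linarith [ht.1]) hd.le
    have h3 : (q - t) / (q - p) + (t - p) / (q - p) = 1 := by
      field_simp; ring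
    have := hg.2 (left_mem_Icc.2 hpq) (right_mem_Icc.2 hpq) h1 h2 h3
    have h4 : ((q - t) / (q - p)) • p + ((t - p) / (q - p)) • q = t := by
      simp only [smul_eq_mul]
      field_simp
      ring
    rw [h4] at this
    simp only [smul_eq_mul] at this
    have h5 := mul_le_mul_of_nonneg_left hA h1
    have h6 := mul_le_mul_of_nonneg_left hB h2
    linarith
  have hint : ∫ t in p..q, (A * ((q - t) / (q - p)) + B * ((t - p) / (q - p)))
      = (q - p) * (A + B) / 2 := by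
    have hder : ∀ t ∈ uIcc p q, HasDerivAt
        (fun t : ℝ => A * (- (q - t) ^ 2 / (2 * (q - p))) + B * ((t - p) ^ 2 / (2 * (q - p))))
        (A * ((q - t) / (q - p)) + B * ((t - p) / (q - p))) t := by
      intro t _
      have hne : q - p ≠ 0 := hd.ne'
      have h1 : HasDerivAt (fun t : ℝ => - (q - t) ^ 2) (2 * (q - t)) t := by
        have := (((hasDerivAt_id' t).const_sub q).pow 2).neg
        refine this.congr_deriv ?_
        ring
      have h2 : HasDerivAt (fun t : ℝ => (t - p) ^ 2) (2 * (t - p)) t := by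
        have := ((hasDerivAt_id' t).sub_const p).pow 2
        refine this.congr_deriv ?_
        ring
      have h3 := ((h1.div_const (2 * (q - p))).const_mul A).add
        ((h2.div_const (2 * (q - p))).const_mul B)
      refine h3.congr_deriv ?_
      field_simp
    rw [intervalIntegral.integral_eq_sub_of_hasDerivAt hder]
    · have hne : q - p ≠ 0 := hd.ne'
      field_simp
      ring
    · apply Continuous.intervalIntegrable
      fun_prop
  rw [← hint]
  apply intervalIntegral.integral_mono_on hpq (hc.intervalIntegrable _ _)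
  · apply Continuous.intervalIntegrable
    fun_prop
  · exact hline

/-- Integral of `1 + 2 g` over a segment when `g` is convex, `≤ 1` at the endpoints,
`≤ τ` somewhere. -/
theorem fibre_lintegral_le {g : ℝ → ℝ} {α β t₀ τ : ℝ} (hc : Continuous g)
    (hconv : ConvexOn ℝ univ g) (g0 : ∀ t, 0 ≤ g t) (hα : g α ≤ 1) (hβ : g β ≤ 1)
    (ht₀ : t₀ ∈ Icc α β) (hτ : g t₀ ≤ τ) :
    ∫⁻ t in Icc α β, ENNReal.ofReal (1 + 2 * g t) ≤ ENNReal.ofReal ((β - α) * (2 + τ)) := by
  have hαβ : α ≤ β := ht₀.1.trans ht₀.2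
  have hf : Continuous fun t => 1 + 2 * g t := by fun_prop
  rw [← ofReal_integral_eq_lintegral_ofReal (hf.integrableOn_Icc)
    (Filter.Eventually.of_forall fun t => by
      have := g0 t
      show (0 : ℝ) ≤ 1 + 2 * g t
      linarith)]
  apply ENNReal.ofReal_le_ofReal
  rw [integral_Icc_eq_integral_Ioc, ← intervalIntegral.integral_of_le hαβ]
  have h1 := convex_integral_le ht₀.1 (hconv.subset (subset_univ _) (convex_Icc _ _)) hc hα hτ
  have h2 := convex_integral_le ht₀.2 (hconv.subset (subset_univ _) (convex_Icc _ _)) hc hτ hβ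
  have h3 : ∫ t in α..β, g t = (∫ t in α..t₀, g t) + ∫ t in t₀..β, g t :=
    (intervalIntegral.integral_add_adjacent_intervals (hc.intervalIntegrable _ _)
      (hc.intervalIntegrable _ _)).symm
  have h4 : ∫ t in α..β, (1 + 2 * g t) = (β - α) + 2 * ∫ t in α..β, g t := by
    rw [intervalIntegral.integral_add (by simp) ((hc.intervalIntegrable _ _).const_mul 2),
      intervalIntegral.integral_const_mul]
    simp
  rw [h4, h3]
  nlinarith [ht₀.1, ht₀.2]

variable {X : Type*} [NormedAddCommGroup X] [NormedSpace ℝ X] [MeasurableSpace X] [BorelSpace X]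
  [FiniteDimensional ℝ X]

/-- Any nonzero vector of `ℝ × ℝ` can be moved to `(0,1)` by a linear automorphism. -/
theorem exists_linearEquiv_prod {p q : ℝ} (h : (p, q) ≠ ((0 : ℝ), (0 : ℝ))) :
    ∃ L : (ℝ × ℝ) ≃ₗ[ℝ] (ℝ × ℝ), L (p, q) = ((0 : ℝ), (1 : ℝ)) := by
  have hN : p ^ 2 + q ^ 2 ≠ 0 := by
    intro h0
    apply h
    have hp : p = 0 := by nlinarith [sq_nonneg p, sq_nonneg q]
    have hq : q = 0 := by nlinarith [sq_nonneg p, sq_nonneg q]
    rw [hp, hq]
  refine ⟨LinearEquiv.ofLinearMap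
    { toFun := fun w => (q * w.1 - p * w.2, (p * w.1 + q * w.2) / (p ^ 2 + q ^ 2))
      map_add' := by
        intro x y
        ext
        · simp; ring
        · simp; ring
      map_smul' := by
        intro c x
        ext
        · simp; ring
        · simp; ring }
    { toFun := fun w => (q * w.1 / (p ^ 2 + q ^ 2) + p * w.2, - p * w.1 / (p ^ 2 + q ^ 2) + q * w.2)
      map_add' := by
        intro x y
        ext
        · simp; ring
        · simp; ring
      map_smul' := by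
        intro c x
        ext
        · simp; ring
        · simp; ring }
    ?_ ?_, ?_⟩
  · refine LinearMap.ext fun w => Prod.ext ?_ ?_
    · show q * (q * w.1 / (p ^ 2 + q ^ 2) + p * w.2) - p * (-p * w.1 / (p ^ 2 + q ^ 2) + q * w.2) = w.1
      field_simp
      ring
    · show (p * (q * w.1 / (p ^ 2 + q ^ 2) + p * w.2) + q * (-p * w.1 / (p ^ 2 + q ^ 2) + q * w.2))
        / (p ^ 2 + q ^ 2) = w.2
      field_simp
      ring
  · refine LinearMap.ext fun w => Prod.ext ?_ ?_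
    · show q * (q * w.1 - p * w.2) / (p ^ 2 + q ^ 2)
        + p * ((p * w.1 + q * w.2) / (p ^ 2 + q ^ 2)) = w.1
      field_simp
      ring
    · show -p * (q * w.1 - p * w.2) / (p ^ 2 + q ^ 2)
        + q * ((p * w.1 + q * w.2) / (p ^ 2 + q ^ 2)) = w.2
      field_simp
      ring
  · refine Prod.ext ?_ ?_
    · show q * p - p * q = 0
      ring
    · show (p * p + q * q) / (p ^ 2 + q ^ 2) = 1
      field_simp

/-- Any nonzero vector of a two-dimensional real space can be moved to `(0,1)` by a linear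
equivalence with `ℝ × ℝ`. -/
theorem exists_linearEquiv_of_ne (hdim : finrank ℝ X = 2) {v : X} (hv : v ≠ 0) :
    ∃ L : X ≃ₗ[ℝ] (ℝ × ℝ), L v = ((0 : ℝ), (1 : ℝ)) := by
  have hf : finrank ℝ X = finrank ℝ (ℝ × ℝ) := by
    rw [hdim]; simp
  let L₀ : X ≃ₗ[ℝ] (ℝ × ℝ) := LinearEquiv.ofFinrankEq _ _ hf
  have hne : L₀ v ≠ ((0 : ℝ), (0 : ℝ)) := by
    intro h
    apply hv
    have : L₀ v = L₀ 0 := by rw [h, map_zero]; rfl
    exact L₀.injective this
  obtain ⟨L₁, hL₁⟩ := exists_linearEquiv_prod (p := (L₀ v).1) (q := (L₀ v).2) (by simpa using hne)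
  exact ⟨L₀.trans L₁, by simpa using hL₁⟩

/-- The planar key inequality transported to a two-dimensional space with a Haar measure. -/
theorem key_X (hdim : finrank ℝ X = 2) (μ : Measure X) [μ.IsAddHaarMeasure]
    {P : Set X} (hc : IsCompact P) (hconv : Convex ℝ P) (hsymm : ∀ x ∈ P, -x ∈ P)
    {v : X} (hv0 : v ≠ 0) (hmax : ∀ l : ℝ, 1 < l → l • v ∉ P)
    {a : X → ℝ} (ha_meas : Measurable a) (ha0 : ∀ y, 0 ≤ a y) (ha_conc : ConcaveOn ℝ P a)
    {τ : ℝ} (hτ0 : 0 ≤ τ) (hτ : τ • v ∈ P) (heven : a (-(τ • v)) = a (τ • v)) :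
    ENNReal.ofReal (a (τ • v) * (2 + τ) / 6) * μ P ≤ ∫⁻ y, ENNReal.ofReal (a y) ∂μ := by
  obtain ⟨L₀, hL₀⟩ := exists_linearEquiv_of_ne hdim hv0
  let L : X ≃L[ℝ] (ℝ × ℝ) := L₀.toContinuousLinearEquiv
  have hLv : L v = ((0 : ℝ), (1 : ℝ)) := hL₀
  -- the image measure is a multiple of Lebesgue measure
  have hHaar : (Measure.map L μ).IsAddHaarMeasure := L.isAddHaarMeasure_map μ
  obtain ⟨c, hcν⟩ : ∃ c : NNReal, Measure.map L μ = c • (volume : Measure (ℝ × ℝ)) :=
    ⟨_, Measure.isAddLeftInvariant_eq_smul _ _⟩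
  let P' : Set (ℝ × ℝ) := L '' P
  have hP'c : IsCompact P' := hc.image L.continuous
  have hP'conv : Convex ℝ P' := hconv.linear_image L.toLinearEquiv.toLinearMap
  have hP'sym : ∀ x ∈ P', -x ∈ P' := by
    rintro _ ⟨x, hx, rfl⟩
    exact ⟨-x, hsymm x hx, by simp⟩
  have hP'max : ∀ l : ℝ, 1 < l → ((0 : ℝ), l) ∉ P' := by
    rintro l hl ⟨x, hx, hxe⟩
    have : x = l • v := by
      apply L.injective
      rw [hxe, map_smul, hLv]
      simp
    exact hmax l hl (this ▸ hx)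
  let a' : ℝ × ℝ → ℝ := fun w => a (L.symm w)
  have ha'm : Measurable a' := ha_meas.comp L.symm.continuous.measurable
  have ha'0 : ∀ w, 0 ≤ a' w := fun w => ha0 _
  have ha'c : ConcaveOn ℝ P' a' := by
    refine ⟨hP'conv, ?_⟩
    rintro _ ⟨x, hx, rfl⟩ _ ⟨y, hy, rfl⟩ s t hs ht hst
    simp only [a', map_add, map_smul, ContinuousLinearEquiv.symm_apply_apply]
    exact ha_conc.2 hx hy hs ht hst
  have hτ' : ((0 : ℝ), τ) ∈ P' := ⟨τ • v, hτ, by rw [map_smul, hLv]; simp⟩
  have hA : a' ((0 : ℝ), τ) = a (τ • v) := by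
    simp only [a']
    congr 1
    apply L.injective
    rw [ContinuousLinearEquiv.apply_symm_apply, map_smul, hLv]
    simp
  have hA' : a' ((0 : ℝ), -τ) = a (τ • v) := by
    rw [← heven]
    simp only [a']
    congr 1
    apply L.injective
    rw [ContinuousLinearEquiv.apply_symm_apply, map_neg, map_smul, hLv]
    simp
  have hkey := planar_key hP'c hP'conv hP'sym hP'max ha'm ha'0 ha'c hτ0 hτ' hA hA'
  -- transport
  have hPm : MeasurableSet P' := hP'c.measurableSet
  have h1 : μ P = (Measure.map L μ) P' := by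
    rw [Measure.map_apply L.continuous.measurable hPm]
    congr 1
    ext x
    simp only [P', mem_preimage, mem_image]
    constructor
    · intro hx
      exact ⟨x, hx, rfl⟩
    · rintro ⟨y, hy, hxy⟩
      rwa [← L.injective hxy]
  have h2 : ∫⁻ y, ENNReal.ofReal (a y) ∂μ
      = ∫⁻ w, ENNReal.ofReal (a' w) ∂(Measure.map L μ) := by
    rw [lintegral_map (ha'm.ennreal_ofReal) L.continuous.measurable]
    simp [a']
  rw [h1, h2, hcν]
  simp only [Measure.smul_apply, lintegral_smul_measure]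
  calc ENNReal.ofReal (a (τ • v) * (2 + τ) / 6) * (c • volume P')
      = c • (ENNReal.ofReal (a (τ • v) * (2 + τ) / 6) * volume P') := by
        simp only [ENNReal.smul_def, smul_eq_mul]
        ring
    _ ≤ c • ∫⁻ w, ENNReal.ofReal (a' w) := by
        simp only [ENNReal.smul_def, smul_eq_mul]
        exact mul_le_mul_right hkey _

section cylinder

variable {K : Set (X × ℝ)}

/-- A fibre of a compact set is compact. -/
theorem fibre_compact (hc : IsCompact K) (y : X) : IsCompact (Prod.mk y ⁻¹' K) := by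
  have hcl : IsClosed (Prod.mk y ⁻¹' K) := hc.isClosed.preimage (by fun_prop)
  have hsub : Prod.mk y ⁻¹' K ⊆ Prod.snd '' K := fun s hs => ⟨(y, s), hs, rfl⟩
  exact (hc.image continuous_snd).of_isClosed_subset hcl hsub

/-- Fibres of a compact convex set are intervals. -/
theorem fibre_eq_Icc' (hc : IsCompact K) (hconv : Convex ℝ K) (y : X)
    (hne : (Prod.mk y ⁻¹' K).Nonempty) :
    Prod.mk y ⁻¹' K = Icc (sInf (Prod.mk y ⁻¹' K)) (sSup (Prod.mk y ⁻¹' K)) := by
  have hcomp := fibre_compact hc y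
  have hord : (Prod.mk y ⁻¹' K).OrdConnected := by
    apply Convex.ordConnected
    intro s hs t ht a b ha hb hab
    have := hconv hs ht ha hb hab
    simp only [mem_preimage] at *
    convert this using 1
    ext
    · simp only [Prod.smul_mk, Prod.mk_add_mk]
      rw [← add_smul, hab, one_smul]
    · simp
  apply Subset.antisymm
  · intro x hx
    exact ⟨csInf_le hcomp.bddBelow hx, le_csSup hcomp.bddAbove hx⟩
  · exact hord.out (hcomp.sInf_mem hne) (hcomp.sSup_mem hne)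

/-- The fibre length function. -/
def fibLen (K : Set (X × ℝ)) (y : X) : ℝ := (volume (Prod.mk y ⁻¹' K)).toReal

theorem fibLen_nonneg (y : X) : 0 ≤ fibLen K y := ENNReal.toReal_nonneg

theorem ofReal_fibLen (hc : IsCompact K) (y : X) :
    ENNReal.ofReal (fibLen K y) = volume (Prod.mk y ⁻¹' K) :=
  ENNReal.ofReal_toReal (fibre_compact hc y).measure_lt_top.ne

theorem measurable_fibLen (hc : IsCompact K) : Measurable (fibLen K) :=
  (measurable_measure_prodMk_left hc.measurableSet).ennreal_toReal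

theorem fibLen_eq (hc : IsCompact K) (hconv : Convex ℝ K) {y : X}
    (hne : (Prod.mk y ⁻¹' K).Nonempty) :
    fibLen K y = sSup (Prod.mk y ⁻¹' K) - sInf (Prod.mk y ⁻¹' K) := by
  have h1 := fibre_eq_Icc' hc hconv y hne
  have hcomp := fibre_compact hc y
  have h2 : sInf (Prod.mk y ⁻¹' K) ≤ sSup (Prod.mk y ⁻¹' K) :=
    csInf_le_csSup hne hcomp.bddBelow hcomp.bddAbove
  unfold fibLen
  rw [h1, Real.volume_Icc, ← h1, ENNReal.toReal_ofReal (by linarith)]

theorem fibLen_concave (hc : IsCompact K) (hconv : Convex ℝ K) :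
    ConcaveOn ℝ (Prod.fst '' K) (fibLen K) := by
  refine ⟨hconv.linear_image (LinearMap.fst ℝ X ℝ), ?_⟩
  rintro _ ⟨⟨y₁, t₁⟩, h₁, rfl⟩ _ ⟨⟨y₂, t₂⟩, h₂, rfl⟩ a b ha hb hab
  simp only
  have hne₁ : (Prod.mk y₁ ⁻¹' K).Nonempty := ⟨t₁, h₁⟩
  have hne₂ : (Prod.mk y₂ ⁻¹' K).Nonempty := ⟨t₂, h₂⟩
  set y := a • y₁ + b • y₂ with hy
  have hC₁ := fibre_compact hc y₁
  have hC₂ := fibre_compact hc y₂
  have hC := fibre_compact hc y
  have hsup₁ : (y₁, sSup (Prod.mk y₁ ⁻¹' K)) ∈ K := hC₁.sSup_mem hne₁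
  have hsup₂ : (y₂, sSup (Prod.mk y₂ ⁻¹' K)) ∈ K := hC₂.sSup_mem hne₂
  have hinf₁ : (y₁, sInf (Prod.mk y₁ ⁻¹' K)) ∈ K := hC₁.sInf_mem hne₁
  have hinf₂ : (y₂, sInf (Prod.mk y₂ ⁻¹' K)) ∈ K := hC₂.sInf_mem hne₂
  have hS := hconv hsup₁ hsup₂ ha hb hab
  have hI := hconv hinf₁ hinf₂ ha hb hab
  simp only [Prod.smul_mk, Prod.mk_add_mk, smul_eq_mul] at hS hI
  have hne : (Prod.mk y ⁻¹' K).Nonempty := ⟨_, hS⟩
  rw [fibLen_eq hc hconv hne₁, fibLen_eq hc hconv hne₂, fibLen_eq hc hconv hne]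
  have hS' : a * sSup (Prod.mk y₁ ⁻¹' K) + b * sSup (Prod.mk y₂ ⁻¹' K) ≤ sSup (Prod.mk y ⁻¹' K) :=
    le_csSup hC.bddAbove hS
  have hI' : sInf (Prod.mk y ⁻¹' K) ≤ a * sInf (Prod.mk y₁ ⁻¹' K) + b * sInf (Prod.mk y₂ ⁻¹' K) :=
    csInf_le hC.bddBelow hI
  simp only [smul_eq_mul]
  linarith

theorem fibLen_neg (hs : ∀ z ∈ K, -z ∈ K) (y : X) : fibLen K (-y) = fibLen K y := by
  unfold fibLen
  have h : Prod.mk (-y) ⁻¹' K = Neg.neg ⁻¹' (Prod.mk y ⁻¹' K) := by
    ext t
    simp only [mem_preimage]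
    constructor
    · intro h
      simpa using hs _ h
    · intro h
      simpa using hs _ h
  rw [h, Measure.measure_preimage_neg]

/-- The pointwise fibre bound. -/
theorem fibre_bound (hdim : finrank ℝ X = 2) (μ : Measure X) [μ.IsAddHaarMeasure]
    (hc : IsCompact K) (hv : Convex ℝ K) (hs : ∀ z ∈ K, -z ∈ K) (h0 : (0 : X × ℝ) ∈ K)
    {ρ : X × ℝ → ℝ} (hρc : Continuous ρ) (hρconv : ConvexOn ℝ univ ρ) (hρ0 : ∀ z, 0 ≤ ρ z)
    (hρh : ∀ z ∈ K, ∀ t ∈ Icc (0 : ℝ) 1, ρ (t • z) ≤ t) (y : X) :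
    (∫⁻ t in Prod.mk y ⁻¹' K, ENNReal.ofReal (1 + 2 * ρ (y, t))) * μ (Prod.fst '' K)
      ≤ 6 * (μ.prod volume) K := by
  classical
  rcases (Prod.mk y ⁻¹' K).eq_empty_or_nonempty with hemp | hne
  · simp [hemp]
  set P : Set X := Prod.fst '' K with hP
  have hPc : IsCompact P := hc.image continuous_fst
  have hPv : Convex ℝ P := hv.linear_image (LinearMap.fst ℝ X ℝ)
  have hPs : ∀ x ∈ P, -x ∈ P := by
    rintro _ ⟨z, hz, rfl⟩
    exact ⟨-z, hs z hz, by simp⟩
  have hyP : y ∈ P := by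
    obtain ⟨t, ht⟩ := hne
    exact ⟨(y, t), ht, rfl⟩
  have h0P : (0 : X) ∈ P := ⟨0, h0, rfl⟩
  have : Nontrivial X := by
    apply Module.nontrivial_of_finrank_pos (R := ℝ)
    rw [hdim]; norm_num
  by_cases hμP : μ P = 0
  · simp [hμP]
  -- a nonzero point of `P`
  have hnz : ∃ x ∈ P, x ≠ 0 := by
    by_contra hcon
    push Not at hcon
    apply hμP
    apply measure_mono_null (t := {(0 : X)})
    · intro x hx
      exact hcon x hx
    · simp
  -- the direction to use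
  obtain ⟨x, hxP, hx0, hyx⟩ : ∃ x ∈ P, x ≠ 0 ∧ ∃ r : ℝ, 0 ≤ r ∧ r ≤ 1 ∧ (∀ l : ℝ, 1 ≤ l → l • x ∈ P → y = (r / l) • (l • x)) ∧ (y = r • x) := by
    by_cases hy0 : y = 0
    · obtain ⟨x, hx, hx0⟩ := hnz
      refine ⟨x, hx, hx0, 0, le_rfl, zero_le_one, ?_, by simp [hy0]⟩
      intro l _ _
      simp [hy0]
    · refine ⟨y, hyP, hy0, 1, zero_le_one, le_rfl, ?_, by simp⟩
      intro l hl _
      rw [smul_smul, div_mul_cancel₀ _ (by linarith : l ≠ 0), one_smul]
  obtain ⟨r, hr0, hr1, hrl, hyr⟩ := hyx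
  -- the maximal multiple of `x` in `P`
  have hSc : IsCompact {l : ℝ | 1 ≤ l ∧ l • x ∈ P} := by
    have hcl : IsClosed {l : ℝ | 1 ≤ l ∧ l • x ∈ P} := by
      apply IsClosed.inter isClosed_Ici
      exact hPc.isClosed.preimage (by fun_prop)
    apply Metric.isCompact_of_isClosed_isBounded hcl
    -- boundedness
    obtain ⟨R, hR⟩ := hPc.isBounded.exists_norm_le
    have hxn : 0 < ‖x‖ := norm_pos_iff.2 hx0
    apply (Metric.isBounded_Icc (1 : ℝ) (R / ‖x‖)).subset
    rintro l ⟨hl1, hlP⟩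
    refine ⟨hl1, ?_⟩
    rw [le_div_iff₀ hxn]
    have := hR _ hlP
    rw [norm_smul, Real.norm_eq_abs, abs_of_nonneg (by linarith)] at this
    exact this
  have hSne : {l : ℝ | 1 ≤ l ∧ l • x ∈ P}.Nonempty := ⟨1, le_rfl, by simpa using hxP⟩
  obtain ⟨l, ⟨hl1, hlP⟩, hlmax⟩ := hSc.exists_isMaxOn hSne continuousOn_id
  have hl0 : l ≠ 0 := by linarith
  set v : X := l • x with hvdef
  have hv0 : v ≠ 0 := smul_ne_zero hl0 hx0
  have hmax : ∀ m : ℝ, 1 < m → m • v ∉ P := by
    intro m hm hmP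
    have hml : (m * l) • x ∈ P := by
      rw [mul_smul]; exact hmP
    have hge : 1 ≤ m * l := by nlinarith
    have hle : m * l ≤ l := hlmax (a := m * l) ⟨hge, hml⟩
    nlinarith
  set τ : ℝ := r / l with hτdef
  have hτ0 : 0 ≤ τ := div_nonneg hr0 (by linarith)
  have hτ1 : τ ≤ 1 := by
    rw [hτdef, div_le_one (by linarith)]
    linarith
  have hyτ : y = τ • v := hrl l hl1 hlP
  have hτP : τ • v ∈ P := hyτ ▸ hyP
  -- fibre integral bound
  obtain ⟨s, hs'⟩ : ∃ s, (v, s) ∈ K := by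
    obtain ⟨⟨a, b⟩, hab, hav⟩ := hlP
    refine ⟨b, ?_⟩
    have hav' : a = v := hav
    rw [← hav']
    exact hab
  have hfibI := fibre_eq_Icc' hc hv y hne
  have hC := fibre_compact hc y
  set α := sInf (Prod.mk y ⁻¹' K) with hα
  set β := sSup (Prod.mk y ⁻¹' K) with hβ
  have hαm : α ∈ Prod.mk y ⁻¹' K := hC.sInf_mem hne
  have hβm : β ∈ Prod.mk y ⁻¹' K := hC.sSup_mem hne
  have ht₀ : τ * s ∈ Prod.mk y ⁻¹' K := by
    have h1 := hv h0 hs' (sub_nonneg.2 hτ1) hτ0 (by ring)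
    simp only [Prod.smul_mk, Prod.mk_add_mk, smul_zero, zero_add, smul_eq_mul] at h1
    have h2 : (0 : X × ℝ) = ((0 : X), (0 : ℝ)) := rfl
    simp only [mem_preimage, hyτ]
    convert h1 using 1
  have hg : Continuous fun t : ℝ => ρ (y, t) := hρc.comp (by fun_prop)
  have hgconv : ConvexOn ℝ univ fun t : ℝ => ρ (y, t) := by
    refine ⟨convex_univ, ?_⟩
    intro p _ q _ a b ha hb hab
    have := hρconv.2 (mem_univ (y, p)) (mem_univ (y, q)) ha hb hab
    simp only [Prod.smul_mk, Prod.mk_add_mk] at this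
    rw [← add_smul, hab, one_smul] at this
    exact this
  have hle1 : ∀ t ∈ Prod.mk y ⁻¹' K, ρ (y, t) ≤ 1 := by
    intro t ht
    have := hρh (y, t) ht 1 ⟨zero_le_one, le_rfl⟩
    simpa using this
  have hτρ : ρ (y, τ * s) ≤ τ := by
    have := hρh (v, s) hs' τ ⟨hτ0, hτ1⟩
    rw [hyτ]
    simpa using this
  have hbd := fibre_lintegral_le (g := fun t => ρ (y, t)) hg hgconv (fun t => hρ0 _)
    (hle1 α hαm) (hle1 β hβm) (hfibI ▸ ht₀) hτρ
  rw [← hfibI] at hbd
  -- the area bound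
  have hlen : fibLen K y = β - α := fibLen_eq hc hv hne
  have hkey := key_X hdim μ hPc hPv hPs hv0 hmax (measurable_fibLen hc)
    (fibLen_nonneg (K := K)) (fibLen_concave hc hv) hτ0 hτP (fibLen_neg hs _)
  rw [← hyτ] at hkey
  have hV : ∫⁻ y, ENNReal.ofReal (fibLen K y) ∂μ = (μ.prod volume) K := by
    rw [Measure.prod_apply hc.measurableSet]
    exact lintegral_congr fun y => ofReal_fibLen hc y
  rw [hV] at hkey
  have hab0 : 0 ≤ (β - α) * (2 + τ) := by
    have := fibLen_nonneg (K := K) y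
    rw [hlen] at this
    positivity
  calc (∫⁻ t in Prod.mk y ⁻¹' K, ENNReal.ofReal (1 + 2 * ρ (y, t))) * μ P
      ≤ ENNReal.ofReal ((β - α) * (2 + τ)) * μ P := mul_le_mul_left hbd _
    _ = 6 * (ENNReal.ofReal (fibLen K y * (2 + τ) / 6) * μ P) := by
        rw [← mul_assoc]
        congr 1
        have : (6 : ℝ≥0∞) = ENNReal.ofReal 6 := by simp
        rw [this, ← ENNReal.ofReal_mul (by norm_num), hlen]
        congr 1
        ring
    _ ≤ 6 * (μ.prod volume) K := mul_le_mul_right hkey _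

/-- The cylinder bound: integrate the pointwise fibre bound over the base. -/
theorem cylinder_core (hdim : finrank ℝ X = 2) (μ : Measure X) [μ.IsAddHaarMeasure]
    (hc : IsCompact K) (hv : Convex ℝ K) (hs : ∀ z ∈ K, -z ∈ K) (h0 : (0 : X × ℝ) ∈ K)
    {ρ : X × ℝ → ℝ} (hρc : Continuous ρ) (hρconv : ConvexOn ℝ univ ρ) (hρ0 : ∀ z, 0 ≤ ρ z)
    (hρh : ∀ z ∈ K, ∀ t ∈ Icc (0 : ℝ) 1, ρ (t • z) ≤ t) {B : Set X} (hB : MeasurableSet B) :
    (∫⁻ z in K ∩ Prod.fst ⁻¹' B, ENNReal.ofReal (1 + 2 * ρ z) ∂(μ.prod volume))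
        * μ (Prod.fst '' K) ≤ 6 * (μ.prod volume) K * μ B := by
  have hKm : MeasurableSet K := hc.measurableSet
  have hCm : MeasurableSet (K ∩ Prod.fst ⁻¹' B) := hKm.inter (measurable_fst hB)
  have hFm : Measurable fun z : X × ℝ => ENNReal.ofReal (1 + 2 * ρ z) :=
    (by fun_prop : Continuous fun z : X × ℝ => 1 + 2 * ρ z).measurable.ennreal_ofReal
  have hPfin : μ (Prod.fst '' K) ≠ ⊤ := (hc.image continuous_fst).measure_lt_top.ne
  have hsplit : ∫⁻ z in K ∩ Prod.fst ⁻¹' B, ENNReal.ofReal (1 + 2 * ρ z) ∂(μ.prod volume)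
      = ∫⁻ y in B, (∫⁻ t in Prod.mk y ⁻¹' K, ENNReal.ofReal (1 + 2 * ρ (y, t))) ∂μ := by
    rw [← lintegral_indicator hCm, lintegral_prod _ (hFm.indicator hCm).aemeasurable,
      ← lintegral_indicator hB]
    refine lintegral_congr fun y => ?_
    by_cases hy : y ∈ B
    · rw [indicator_of_mem hy, ← lintegral_indicator (hKm.preimage (by fun_prop))]
      refine lintegral_congr fun t => ?_
      by_cases ht : (y, t) ∈ K
      · rw [indicator_of_mem (show (y, t) ∈ K ∩ Prod.fst ⁻¹' B from ⟨ht, hy⟩),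
          indicator_of_mem (show t ∈ Prod.mk y ⁻¹' K from ht)]
      · rw [indicator_of_notMem (fun h => ht h.1),
          indicator_of_notMem (show t ∉ Prod.mk y ⁻¹' K from ht)]
    · rw [indicator_of_notMem hy]
      have h0' : ∀ t : ℝ, (K ∩ Prod.fst ⁻¹' B).indicator
          (fun z : X × ℝ => ENNReal.ofReal (1 + 2 * ρ z)) (y, t) = 0 := fun t =>
        indicator_of_notMem (fun h => hy h.2) _
      simp only [h0', lintegral_zero]
  rw [hsplit, ← lintegral_mul_const' _ _ hPfin]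
  calc ∫⁻ y in B, (∫⁻ t in Prod.mk y ⁻¹' K, ENNReal.ofReal (1 + 2 * ρ (y, t)))
        * μ (Prod.fst '' K) ∂μ
      ≤ ∫⁻ _ in B, 6 * (μ.prod volume) K ∂μ :=
        lintegral_mono fun y => fibre_bound hdim μ hc hv hs h0 hρc hρconv hρ0 hρh y
    _ = 6 * (μ.prod volume) K * μ B := by
        rw [setLIntegral_const]

end cylinder

end Vale.Agent.Lib.P243
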