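import Vale.Agent.Lib.P243.Mass

/-!
Assembly of the cylinder cover bound for centrally symmetric bodies.
-/

open MeasureTheory Set Module Topology
open scoped ENNReal Pointwise

noncomputable section

namespace Vale.Agent.Lib.P243

variable {E3 : Type*} [NormedAddCommGroup E3] [InnerProductSpace ℝ E3] [FiniteDimensional ℝ E3]
  [MeasurableSpace E3] [BorelSpace E3]

/-- A compact convex symmetric set with nonempty interior is a neighbourhood of the origin. -/
theorem symmetric_nhds_zero {K : Set E3} (hKv : Convex ℝ K)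
    (hKi : (interior K).Nonempty) (hKs : ∀ x ∈ K, -x ∈ K) : K ∈ 𝓝 (0 : E3) := by
  obtain ⟨x, hx⟩ := hKi
  have hnx : -x ∈ interior K := by
    refine interior_maximal (t := Neg.neg ⁻¹' interior K) ?_
      (isOpen_interior.preimage continuous_neg) (by simpa using hx)
    intro z hz
    simpa using hKs _ (interior_subset hz)
  have hconv := hKv.interior
  have := hconv hx hnx (by norm_num : (0 : ℝ) ≤ 1 / 2) (by norm_num : (0 : ℝ) ≤ 1 / 2)
    (by norm_num)
  have h0 : (0 : E3) ∈ interior K := by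
    convert this using 1
    rw [smul_neg, add_neg_cancel]
  exact mem_interior_iff_mem_nhds.1 h0

/-- The cylinder estimate in one direction. -/
theorem cylinder_bound (hdim3 : finrank ℝ E3 = 3) {K : Set E3} (hKc : IsCompact K) (hKv : Convex ℝ K)
    (h0 : K ∈ 𝓝 (0 : E3)) (hKs : ∀ x ∈ K, -x ∈ K) (u : E3) (hu : ‖u‖ = 1)
    {B : Set (Submodule.span ℝ {u})ᗮ} (hB : MeasurableSet B) :
    (∫⁻ z in K ∩ {z | (Submodule.span ℝ {u})ᗮ.orthogonalProjectionOnto z ∈ B},
        ENNReal.ofReal (1 + 2 * gauge K z))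
      * volume ((Submodule.span ℝ {u})ᗮ.orthogonalProjectionOnto '' K)
      ≤ 6 * volume K * volume B := by
  obtain ⟨Φ, hΦm, hΦ⟩ := exists_decomposition u hu
  have hf3 : Fact (finrank ℝ E3 = 2 + 1) := ⟨hdim3⟩
  have hdim : finrank ℝ (Submodule.span ℝ {u})ᗮ = 2 :=
    Submodule.finrank_orthogonal_span_singleton (by
      intro h
      rw [h] at hu
      simp at hu)
  set K' : Set ((Submodule.span ℝ {u})ᗮ × ℝ) := Φ '' K with hK'
  have hKpre : Φ ⁻¹' K' = K := by
    rw [hK']
    exact Φ.injective.preimage_image K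
  have hK'c : IsCompact K' := hKc.image Φ.continuous
  have hK'v : Convex ℝ K' := hKv.linear_image Φ.toLinearEquiv.toLinearMap
  have hK's : ∀ z ∈ K', -z ∈ K' := by
    rintro _ ⟨x, hx, rfl⟩
    exact ⟨-x, hKs x hx, by simp⟩
  have hK'0 : (0 : (Submodule.span ℝ {u})ᗮ × ℝ) ∈ K' :=
    ⟨0, mem_of_mem_nhds h0, by simp⟩
  let ρ : ((Submodule.span ℝ {u})ᗮ × ℝ) → ℝ := fun w => gauge K (Φ.symm w)
  have hρc : Continuous ρ := (continuous_gauge hKv h0).comp Φ.symm.continuous
  have habs : Absorbent ℝ K := absorbent_nhds_zero h0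
  have hρconv : ConvexOn ℝ univ ρ := by
    refine ⟨convex_univ, ?_⟩
    intro x _ y _ a b ha hb _
    simp only [ρ, map_add, map_smul, smul_eq_mul]
    refine (gauge_add_le hKv habs _ _).trans ?_
    rw [gauge_smul_of_nonneg ha, gauge_smul_of_nonneg hb]
    simp
  have hρ0 : ∀ z, 0 ≤ ρ z := fun z => gauge_nonneg _
  have hρh : ∀ z ∈ K', ∀ t ∈ Icc (0 : ℝ) 1, ρ (t • z) ≤ t := by
    rintro _ ⟨x, hx, rfl⟩ t ht
    simp only [ρ, map_smul, ContinuousLinearEquiv.symm_apply_apply]
    rw [gauge_smul_of_nonneg ht.1, smul_eq_mul]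
    have := gauge_le_one_of_mem (s := K) (x := x) hx
    nlinarith [ht.1]
  have hcore := cylinder_core hdim (volume : Measure (Submodule.span ℝ {u})ᗮ) hK'c hK'v hK's hK'0
    hρc hρconv hρ0 hρh hB
  rw [← Measure.volume_eq_prod] at hcore
  -- transport back
  have himg : Prod.fst '' K' = (Submodule.span ℝ {u})ᗮ.orthogonalProjectionOnto '' K := by
    rw [hK', image_image]
    exact image_congr fun z _ => hΦ z
  have hvol : volume K' = volume K := by
    rw [← hKpre]
    exact (hΦm.measure_preimage hK'c.measurableSet.nullMeasurableSet).symm ▸ rfl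
  have hpre : Φ ⁻¹' (K' ∩ Prod.fst ⁻¹' B)
      = K ∩ {z | (Submodule.span ℝ {u})ᗮ.orthogonalProjectionOnto z ∈ B} := by
    rw [preimage_inter, hKpre]
    congr 1
    ext z
    simp [hΦ]
  have hint : ∫⁻ w in K' ∩ Prod.fst ⁻¹' B, ENNReal.ofReal (1 + 2 * ρ w)
      = ∫⁻ z in K ∩ {z | (Submodule.span ℝ {u})ᗮ.orthogonalProjectionOnto z ∈ B},
        ENNReal.ofReal (1 + 2 * gauge K z) := by
    rw [← hpre]
    rw [← hΦm.setLIntegral_comp_preimage_emb Φ.toHomeomorph.measurableEmbedding]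
    refine lintegral_congr fun z => ?_
    simp [ρ]
  rw [hint, himg, hvol] at hcore
  exact hcore

/-- The main inequality. -/
theorem five_twelfths (hdim3 : finrank ℝ E3 = 3) {K : Set E3} (hKc : IsCompact K) (hKv : Convex ℝ K)
    (hKi : (interior K).Nonempty) (hKs : ∀ x ∈ K, -x ∈ K)
    {m : ℕ} (u : Fin m → E3) (hu : ∀ i, ‖u i‖ = 1)
    (B : ∀ i, Set (Submodule.span ℝ {u i})ᗮ) (hB : ∀ i, MeasurableSet (B i))
    (hcov : K ⊆ ⋃ i, {z | (Submodule.span ℝ {u i})ᗮ.orthogonalProjectionOnto z ∈ B i}) :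
    (5 / 12 : ℝ≥0∞) ≤ ∑ i, volume (B i)
      / volume ((Submodule.span ℝ {u i})ᗮ.orthogonalProjectionOnto '' K) := by
  have h0 := symmetric_nhds_zero hKv hKi hKs
  have hVfin : volume K ≠ ⊤ := hKc.measure_lt_top.ne
  have hVpos : volume K ≠ 0 := by
    intro h
    obtain ⟨x, hx⟩ := hKi
    have h1 : 0 < volume (interior K) := isOpen_interior.measure_pos volume ⟨x, hx⟩
    have h2 : volume (interior K) ≤ volume K := measure_mono interior_subset
    rw [h] at h2
    exact absurd (lt_of_lt_of_le h1 h2) (lt_irrefl _)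
  set F : E3 → ℝ≥0∞ := fun z => ENNReal.ofReal (1 + 2 * gauge K z) with hF
  -- each piece
  have hpiece : ∀ i, ∫⁻ z in K ∩ {z | (Submodule.span ℝ {u i})ᗮ.orthogonalProjectionOnto z ∈ B i},
      F z ≤ 6 * volume K * (volume (B i)
        / volume ((Submodule.span ℝ {u i})ᗮ.orthogonalProjectionOnto '' K)) := by
    intro i
    have hb := cylinder_bound hdim3 hKc hKv h0 hKs (u i) (hu i) (hB i)
    set P := (Submodule.span ℝ {u i})ᗮ.orthogonalProjectionOnto '' K with hP
    have hPc : IsCompact P := hKc.image (ContinuousLinearMap.continuous _)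
    have hPfin : volume P ≠ ⊤ := hPc.measure_lt_top.ne
    by_cases hP0 : volume P = 0
    · -- the piece is then null
      exfalso
      obtain ⟨Φ, hΦm, hΦ⟩ := exists_decomposition (u i) (hu i)
      apply hVpos
      have hsub : K ⊆ Φ ⁻¹' (Prod.fst ⁻¹' P) := by
        intro z hz
        show (Φ z).1 ∈ P
        rw [hΦ]
        exact ⟨z, hz, rfl⟩
      have hmeas : MeasurableSet (Prod.fst ⁻¹' P : Set ((Submodule.span ℝ {u i})ᗮ × ℝ)) :=
        measurable_fst hPc.measurableSet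
      have h1 : volume (Φ ⁻¹' (Prod.fst ⁻¹' P)) = 0 := by
        rw [hΦm.measure_preimage hmeas.nullMeasurableSet, Measure.volume_eq_prod,
          ← Set.prod_univ, Measure.prod_prod, hP0, zero_mul]
      exact measure_mono_null hsub h1
    · rw [← mul_div_assoc]
      exact (ENNReal.le_div_iff_mul_le (Or.inl hP0) (Or.inl hPfin)).2 hb
  have hmass := density_mass hdim3 hKc hKv h0
  have hFcov : ∫⁻ z in K, F z ≤ ∑ i,
      ∫⁻ z in K ∩ {z | (Submodule.span ℝ {u i})ᗮ.orthogonalProjectionOnto z ∈ B i}, F z := by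
    have hsub : K ⊆ ⋃ i, K ∩ {z | (Submodule.span ℝ {u i})ᗮ.orthogonalProjectionOnto z ∈ B i} := by
      intro z hz
      obtain ⟨i, hi⟩ := mem_iUnion.1 (hcov hz)
      exact mem_iUnion.2 ⟨i, hz, hi⟩
    refine (lintegral_mono_set hsub).trans ?_
    refine (lintegral_iUnion_le _ _).trans ?_
    rw [tsum_fintype]
  set S : ℝ≥0∞ := ∑ i, volume (B i)
      / volume ((Submodule.span ℝ {u i})ᗮ.orthogonalProjectionOnto '' K) with hS
  have hchain : ENNReal.ofReal (5 / 2) * volume K ≤ (6 * S) * volume K := by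
    calc ENNReal.ofReal (5 / 2) * volume K
        ≤ ∫⁻ z in K, F z := hmass
      _ ≤ ∑ i, ∫⁻ z in K ∩ {z | (Submodule.span ℝ {u i})ᗮ.orthogonalProjectionOnto z ∈ B i}, F z :=
          hFcov
      _ ≤ ∑ i, 6 * volume K * (volume (B i)
          / volume ((Submodule.span ℝ {u i})ᗮ.orthogonalProjectionOnto '' K)) :=
          Finset.sum_le_sum fun i _ => hpiece i
      _ = 6 * volume K * S := by rw [hS, Finset.mul_sum]
      _ = (6 * S) * volume K := by ring
  have hcancel : ENNReal.ofReal (5 / 2) ≤ 6 * S :=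
    (ENNReal.mul_le_mul_iff_left hVpos hVfin).1 hchain
  have h512 : (5 / 12 : ℝ≥0∞) = ENNReal.ofReal (5 / 12) := by
    rw [ENNReal.ofReal_div_of_pos (by norm_num)]
    simp
  have h52 : ENNReal.ofReal (5 / 2) = 6 * ENNReal.ofReal (5 / 12) := by
    have h6 : (6 : ℝ≥0∞) = ENNReal.ofReal 6 := by simp
    rw [h6, ← ENNReal.ofReal_mul (by norm_num)]
    norm_num
  rw [h512]
  rw [h52] at hcancel
  have h60 : (6 : ℝ≥0∞) ≠ 0 := by norm_num
  have h6t : (6 : ℝ≥0∞) ≠ ⊤ := by norm_num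
  exact (ENNReal.mul_le_mul_iff_right h60 h6t).1 hcancel

end Vale.Agent.Lib.P243
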