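import Vale.Agent.Lib.P243.Core

/-!
The gauge of a symmetric convex body has large average, and the decomposition of Euclidean
three-space along a unit vector.
-/

open MeasureTheory Set Module Topology
open scoped ENNReal Pointwise

noncomputable section

namespace Vale.Agent.Lib.P243


/-- The integral of `1 - t^3` on the unit interval. -/
theorem integral_one_sub_cube : ∫ t in (0 : ℝ)..1, (1 - t ^ 3) = 3 / 4 := by
  simp only [intervalIntegral.integral_sub, intervalIntegrable_const, intervalIntegral.intervalIntegrable_pow,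
    intervalIntegral.integral_const, integral_pow]
  norm_num

variable {E3 : Type*} [NormedAddCommGroup E3] [InnerProductSpace ℝ E3] [FiniteDimensional ℝ E3]
  [MeasurableSpace E3] [BorelSpace E3]

/-- The gauge of a convex body has average at least `3/4` on the body. -/
theorem gauge_mass (hdim3 : finrank ℝ E3 = 3) {K : Set E3} (hKc : IsCompact K) (hKv : Convex ℝ K) (h0 : K ∈ 𝓝 (0 : E3)) :
    ENNReal.ofReal (3 / 4) * volume K ≤ ∫⁻ z in K, ENNReal.ofReal (gauge K z) := by
  have hρc : Continuous (gauge K) := continuous_gauge hKv h0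
  have hKm : MeasurableSet K := hKc.measurableSet
  have hVfin : volume K ≠ ⊤ := hKc.measure_lt_top.ne
  have hcake := lintegral_eq_lintegral_meas_lt (volume.restrict K) (f := gauge K)
    (Filter.Eventually.of_forall fun z => gauge_nonneg z) hρc.measurable.aemeasurable
  rw [hcake]
  have habs : Absorbent ℝ K := absorbent_nhds_zero h0
  have hlow : ∀ t ∈ Ioo (0 : ℝ) 1,
      ENNReal.ofReal (1 - t ^ 3) * volume K ≤ (volume.restrict K) {z | t < gauge K z} := by
    intro t ht
    have ht0 : 0 < t := ht.1
    have ht1 : t < 1 := ht.2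
    have hsub : K ∩ {z | gauge K z ≤ t} ⊆ t • K := by
      rintro z ⟨_, hz⟩
      have hz' : gauge K (t⁻¹ • z) ≤ 1 := by
        rw [gauge_smul_of_nonneg (inv_nonneg.2 ht0.le), smul_eq_mul, inv_mul_le_iff₀ ht0, mul_one]
        exact hz
      have hmem : t⁻¹ • z ∈ K := by
        have := (gauge_le_one_iff_mem_closure hKv h0).1 hz'
        rwa [hKc.isClosed.closure_eq] at this
      exact (mem_smul_set_iff_inv_smul_mem₀ ht0.ne' _ _).2 hmem
    have hsmall : (volume.restrict K) {z | gauge K z ≤ t} ≤ ENNReal.ofReal (t ^ 3) * volume K := by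
      rw [Measure.restrict_apply (measurableSet_le hρc.measurable measurable_const), inter_comm]
      refine (measure_mono hsub).trans ?_
      rw [Measure.addHaar_smul]
      rw [hdim3, abs_of_nonneg (by positivity)]
    have hcover : volume K ≤ (volume.restrict K) {z | t < gauge K z}
        + (volume.restrict K) {z | gauge K z ≤ t} := by
      have h1 : volume K = (volume.restrict K) univ := by simp
      rw [h1]
      refine (measure_mono ?_).trans (measure_union_le _ _)
      intro z _
      by_cases hz : t < gauge K z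
      · exact Or.inl hz
      · exact Or.inr (not_lt.1 hz)
    have hsplit : volume K = ENNReal.ofReal (1 - t ^ 3) * volume K
        + ENNReal.ofReal (t ^ 3) * volume K := by
      rw [← add_mul, ← ENNReal.ofReal_add (by
        have : t ^ 3 ≤ 1 := pow_le_one₀ ht0.le ht1.le
        linarith) (by positivity)]
      simp
    have hfin : ENNReal.ofReal (t ^ 3) * volume K ≠ ⊤ :=
      ENNReal.mul_ne_top ENNReal.ofReal_ne_top hVfin
    have h2 : ENNReal.ofReal (1 - t ^ 3) * volume K + ENNReal.ofReal (t ^ 3) * volume K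
        ≤ (volume.restrict K) {z | t < gauge K z} + ENNReal.ofReal (t ^ 3) * volume K := by
      rw [← hsplit]
      exact hcover.trans (add_le_add le_rfl hsmall)
    exact (ENNReal.add_le_add_iff_right hfin).1 h2
  have hintegral : ∫⁻ t in Ioo (0 : ℝ) 1, ENNReal.ofReal (1 - t ^ 3) = ENNReal.ofReal (3 / 4) := by
    rw [← ofReal_integral_eq_lintegral_ofReal]
    · rw [← integral_one_sub_cube, intervalIntegral.integral_of_le zero_le_one,
        integral_Ioc_eq_integral_Ioo]
    · exact ((by fun_prop : Continuous fun t : ℝ => 1 - t ^ 3).integrableOn_Icc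
        (a := 0) (b := 1)).mono_set Ioo_subset_Icc_self
    · refine (ae_restrict_iff' measurableSet_Ioo).2 (Filter.Eventually.of_forall fun t ht => ?_)
      have : t ^ 3 ≤ 1 := pow_le_one₀ ht.1.le ht.2.le
      show (0 : ℝ) ≤ 1 - t ^ 3
      linarith
  calc ENNReal.ofReal (3 / 4) * volume K
      = ∫⁻ t in Ioo (0 : ℝ) 1, ENNReal.ofReal (1 - t ^ 3) * volume K := by
        rw [lintegral_mul_const _ (by fun_prop), hintegral]
    _ ≤ ∫⁻ t in Ioo (0 : ℝ) 1, (volume.restrict K) {z | t < gauge K z} :=
        setLIntegral_mono' measurableSet_Ioo hlow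
    _ ≤ ∫⁻ t in Ioi (0 : ℝ), (volume.restrict K) {z | t < gauge K z} :=
        lintegral_mono_set Ioo_subset_Ioi_self

/-- The density `1 + 2 * gauge` has mass at least `5/2` times the volume. -/
theorem density_mass (hdim3 : finrank ℝ E3 = 3) {K : Set E3} (hKc : IsCompact K) (hKv : Convex ℝ K) (h0 : K ∈ 𝓝 (0 : E3)) :
    ENNReal.ofReal (5 / 2) * volume K ≤ ∫⁻ z in K, ENNReal.ofReal (1 + 2 * gauge K z) := by
  have hρc : Continuous (gauge K) := continuous_gauge hKv h0
  have h1 : ∀ z, ENNReal.ofReal (1 + 2 * gauge K z)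
      = 1 + 2 * ENNReal.ofReal (gauge K z) := by
    intro z
    rw [ENNReal.ofReal_add zero_le_one (by have := gauge_nonneg (s := K) z; positivity),
      ENNReal.ofReal_mul zero_le_two]
    simp
  simp only [h1]
  rw [lintegral_add_left measurable_const, lintegral_const_mul _ hρc.measurable.ennreal_ofReal]
  have hm := gauge_mass hdim3 hKc hKv h0
  have hsplit : ENNReal.ofReal (5 / 2) * volume K
      = volume K + 2 * (ENNReal.ofReal (3 / 4) * volume K) := by
    have h52 : ENNReal.ofReal (5 / 2) = 1 + 2 * ENNReal.ofReal (3 / 4) := by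
      have : (2 : ℝ≥0∞) = ENNReal.ofReal 2 := by simp
      rw [this, ← ENNReal.ofReal_mul zero_le_two, ← ENNReal.ofReal_one,
        ← ENNReal.ofReal_add zero_le_one (by norm_num)]
      norm_num
    rw [h52, add_mul, one_mul, mul_assoc]
  rw [hsplit]
  simp only [lintegral_const, Measure.restrict_apply_univ, one_mul]
  exact add_le_add le_rfl (mul_le_mul_right hm _)

/-- A unit vector splits three-space isometrically as its orthogonal complement times the line. -/
theorem exists_decomposition (u : E3) (hu : ‖u‖ = 1) :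
    ∃ Φ : E3 ≃L[ℝ] ((Submodule.span ℝ {u})ᗮ × ℝ),
      MeasurePreserving Φ volume volume ∧
      ∀ z, (Φ z).1 = (Submodule.span ℝ {u})ᗮ.orthogonalProjectionOnto z := by
  set s : Submodule ℝ E3 := Submodule.span ℝ {u} with hs
  let A : E3 ≃ₗᵢ[ℝ] WithLp 2 (s × sᗮ) := s.orthogonalDecomposition
  let C : s ≃ₗᵢ[ℝ] ℝ := (LinearIsometryEquiv.toSpanUnitSingleton (𝕜 := ℝ) u hu).symm
  let Φ : E3 ≃L[ℝ] (sᗮ × ℝ) :=
    (A.toContinuousLinearEquiv.trans (WithLp.prodContinuousLinearEquiv 2 ℝ s sᗮ)).trans
      ((ContinuousLinearEquiv.prodComm ℝ s sᗮ).trans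
        ((ContinuousLinearEquiv.refl ℝ sᗮ).prodCongr C.toContinuousLinearEquiv))
  refine ⟨Φ, ?_, ?_⟩
  · have h1 : MeasurePreserving A volume volume := A.measurePreserving
    have h2 : MeasurePreserving (WithLp.ofLp : WithLp 2 (s × sᗮ) → s × sᗮ) volume volume :=
      WithLp.volume_preserving_ofLp _ _
    have h3 : MeasurePreserving (Prod.swap : s × sᗮ → sᗮ × s) volume volume := by
      simpa [Measure.volume_eq_prod] using Measure.measurePreserving_swap
    have h4 : MeasurePreserving (Prod.map id C : sᗮ × s → sᗮ × ℝ) volume volume := by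
      simp only [Measure.volume_eq_prod]
      exact (MeasurePreserving.id _).prod C.measurePreserving
    exact h4.comp (h3.comp (h2.comp h1))
  · intro z
    simp [Φ, A]
    rfl

end Vale.Agent.Lib.P243
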