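import Mathlib

/-!
A planar inequality for concave functions on centrally symmetric convex sets of `ℝ × ℝ`.
-/

open MeasureTheory Set
open scoped ENNReal

noncomputable section

namespace Vale.Agent.Lib.P243

/-- Fibres of a compact convex subset of the plane are closed intervals. -/
theorem fibre_eq_Icc {P : Set (ℝ × ℝ)} (hc : IsCompact P) (hconv : Convex ℝ P) (v : ℝ)
    (hne : (Prod.mk v ⁻¹' P).Nonempty) :
    Prod.mk v ⁻¹' P = Icc (sInf (Prod.mk v ⁻¹' P)) (sSup (Prod.mk v ⁻¹' P)) := by
  have hcl : IsClosed (Prod.mk v ⁻¹' P) :=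
    hc.isClosed.preimage (by fun_prop)
  have hsub : Prod.mk v ⁻¹' P ⊆ Prod.snd '' P := by
    intro s hs
    exact ⟨(v, s), hs, rfl⟩
  have hcomp : IsCompact (Prod.mk v ⁻¹' P) :=
    (hc.image continuous_snd).of_isClosed_subset hcl hsub
  have hord : (Prod.mk v ⁻¹' P).OrdConnected := by
    apply Convex.ordConnected
    intro x hx y hy a b ha hb hab
    have := hconv hx hy ha hb hab
    simp only [mem_preimage] at *
    convert this using 1
    ext
    · simp only [Prod.smul_mk, Prod.mk_add_mk, smul_eq_mul]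
      rw [← add_mul, hab, one_mul]
    · simp
  apply Subset.antisymm
  · intro x hx
    exact ⟨csInf_le hcomp.bddBelow hx, le_csSup hcomp.bddAbove hx⟩
  · exact hord.out (hcomp.sInf_mem hne) (hcomp.sSup_mem hne)

/-- Fibres of a symmetric convex set containing `(0,1)` as the farthest point on its
vertical axis have length at most `2`. -/
theorem fibre_length_le {P : Set (ℝ × ℝ)} (hc : IsCompact P) (hconv : Convex ℝ P)
    (hsymm : ∀ x ∈ P, -x ∈ P) (hmax : ∀ l : ℝ, 1 < l → ((0 : ℝ), l) ∉ P) (v : ℝ)
    (hne : (Prod.mk v ⁻¹' P).Nonempty) :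
    volume (Prod.mk v ⁻¹' P) ≤ 2 := by
  have hfib := fibre_eq_Icc hc hconv v hne
  set l := sInf (Prod.mk v ⁻¹' P) with hl
  set h := sSup (Prod.mk v ⁻¹' P) with hh
  have hhmem : (v, h) ∈ P := by
    have : h ∈ Prod.mk v ⁻¹' P := by
      rw [hfib]
      have hle : l ≤ h := by
        obtain ⟨s, hs⟩ := hne
        rw [hfib] at hs
        exact hs.1.trans hs.2
      exact ⟨hle, le_rfl⟩
    exact this
  have hlmem : (v, l) ∈ P := by
    have : l ∈ Prod.mk v ⁻¹' P := by
      rw [hfib]
      have hle : l ≤ h := by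
        obtain ⟨s, hs⟩ := hne
        rw [hfib] at hs
        exact hs.1.trans hs.2
      exact ⟨le_rfl, hle⟩
    exact this
  have hmid : ((0 : ℝ), (h - l) / 2) ∈ P := by
    have h1 := hsymm _ hlmem
    have := hconv hhmem h1 (by norm_num : (0 : ℝ) ≤ 1 / 2) (by norm_num : (0 : ℝ) ≤ 1 / 2)
      (by norm_num)
    convert this using 1
    ext
    · simp
    · simp; ring
  have hle : (h - l) / 2 ≤ 1 := by
    by_contra hcon
    exact hmax _ (not_le.mp hcon) hmid
  rw [hfib, Real.volume_Icc]
  have : h - l ≤ 2 := by linarith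
  calc ENNReal.ofReal (h - l) ≤ ENNReal.ofReal 2 := ENNReal.ofReal_le_ofReal this
    _ = 2 := by simp

/-- Area of the projection dominates half the area of `P`. -/
theorem volume_le_two_mul_shadow {P : Set (ℝ × ℝ)} (hc : IsCompact P) (hconv : Convex ℝ P)
    (hsymm : ∀ x ∈ P, -x ∈ P) (hmax : ∀ l : ℝ, 1 < l → ((0 : ℝ), l) ∉ P) :
    volume P ≤ 2 * volume (Prod.fst '' P) := by
  have hm : MeasurableSet P := hc.measurableSet
  have hsh : MeasurableSet (Prod.fst '' P) := (hc.image continuous_fst).measurableSet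
  rw [Measure.volume_eq_prod, Measure.prod_apply hm]
  calc ∫⁻ v, volume (Prod.mk v ⁻¹' P)
      ≤ ∫⁻ v, (Prod.fst '' P).indicator (fun _ => (2 : ℝ≥0∞)) v := by
        apply lintegral_mono
        intro v
        by_cases hv : v ∈ Prod.fst '' P
        · rw [indicator_of_mem hv]
          obtain ⟨⟨v', s⟩, hp, rfl⟩ := hv
          exact fibre_length_le hc hconv hsymm hmax v' ⟨s, hp⟩
        · have hempty : Prod.mk v ⁻¹' P = ∅ := by
            ext s
            simp only [mem_preimage, mem_empty_iff_false, iff_false]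
            intro hs
            exact hv ⟨(v, s), hs, rfl⟩
          simp [hempty, indicator_of_notMem hv]
    _ = 2 * volume (Prod.fst '' P) := by
        rw [lintegral_indicator hsh, setLIntegral_const]

/-- Scaling in the lower integral on the line. -/
theorem lintegral_comp_div {g : ℝ → ℝ≥0∞} (hg : Measurable g) {c : ℝ} (hc : 0 < c) :
    ∫⁻ v, g (v / c) = ENNReal.ofReal c * ∫⁻ v, g v := by
  have hinv : c⁻¹ ≠ 0 := inv_ne_zero hc.ne'
  have hmap := Real.map_volume_mul_left hinv
  have : ∫⁻ v, g (v / c) = ∫⁻ v, g v ∂(Measure.map (fun x => c⁻¹ * x) volume) := by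
    rw [lintegral_map hg (by fun_prop)]
    congr 1
    ext v
    rw [div_eq_inv_mul]
  rw [this, hmap, inv_inv, abs_of_pos hc]
  simp

/-- The level-set estimate. -/
theorem level_area {P : Set (ℝ × ℝ)} (hc : IsCompact P) (hconv : Convex ℝ P)
    (hsymm : ∀ x ∈ P, -x ∈ P) (hmax : ∀ l : ℝ, 1 < l → ((0 : ℝ), l) ∉ P)
    {a : ℝ × ℝ → ℝ} (ha_meas : Measurable a) (ha0 : ∀ w, 0 ≤ a w)
    (ha_conc : ConcaveOn ℝ P a)
    {τ A θ : ℝ} (hτ0 : 0 ≤ τ) (hθ0 : 0 < θ) (hθ1 : θ < 1)
    (hτp : ((0 : ℝ), τ) ∈ P) (hA : a (0, τ) = A) (hA' : a (0, -τ) = A) :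
    ENNReal.ofReal ((1 - θ) ^ 2 + τ * θ * (1 - θ)) * volume P ≤ volume {w | θ * A ≤ a w} := by
  have hm : MeasurableSet P := hc.measurableSet
  have hsh : MeasurableSet (Prod.fst '' P) := (hc.image continuous_fst).measurableSet
  set c := 1 - θ with hcdef
  have hc0 : 0 < c := by rw [hcdef]; linarith
  have hlev : MeasurableSet {w | θ * A ≤ a w} := measurableSet_le measurable_const ha_meas
  have hτm : ((0 : ℝ), -τ) ∈ P := by
    have := hsymm _ hτp
    simpa using this
  -- fibrewise bound
  have hfib : ∀ v, ENNReal.ofReal c * volume (Prod.mk (v / c) ⁻¹' P)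
      + (Prod.fst '' P).indicator (fun _ => ENNReal.ofReal (2 * θ * τ)) (v / c)
      ≤ volume (Prod.mk v ⁻¹' {w | θ * A ≤ a w}) := by
    intro v
    by_cases hv : v / c ∈ Prod.fst '' P
    · rw [indicator_of_mem hv]
      have hne : (Prod.mk (v / c) ⁻¹' P).Nonempty := by
        obtain ⟨⟨v', s⟩, hp, hv'⟩ := hv
        simp only at hv'
        exact ⟨s, by simpa [← hv'] using hp⟩
      have hI := fibre_eq_Icc hc hconv (v / c) hne
      set l := sInf (Prod.mk (v / c) ⁻¹' P)
      set h := sSup (Prod.mk (v / c) ⁻¹' P)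
      have hle : l ≤ h := by
        obtain ⟨s, hs⟩ := hne
        rw [hI] at hs
        exact hs.1.trans hs.2
      have hhmem : ((v / c), h) ∈ P := by
        have : h ∈ Prod.mk (v / c) ⁻¹' P := by rw [hI]; exact ⟨hle, le_rfl⟩
        exact this
      have hlmem : ((v / c), l) ∈ P := by
        have : l ∈ Prod.mk (v / c) ⁻¹' P := by rw [hI]; exact ⟨le_rfl, hle⟩
        exact this
      rw [hI, Real.volume_Icc]
      -- the two end points of the long fibre
      have hv1 : (v, c * h + θ * τ) = c • ((v / c), h) + θ • ((0 : ℝ), τ) := by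
        ext
        · simp; field_simp
        · simp
      have hv2 : (v, c * l - θ * τ) = c • ((v / c), l) + θ • ((0 : ℝ), -τ) := by
        ext
        · simp; field_simp
        · simp; ring
      have hcθ : c + θ = 1 := by rw [hcdef]; ring
      have hup : θ * A ≤ a (v, c * h + θ * τ) := by
        rw [hv1]
        have := ha_conc.2 hhmem hτp hc0.le hθ0.le hcθ
        have h0 := ha0 ((v / c), h)
        simp only [smul_eq_mul, hA] at this
        nlinarith
      have hlo : θ * A ≤ a (v, c * l - θ * τ) := by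
        rw [hv2]
        have := ha_conc.2 hlmem hτm hc0.le hθ0.le hcθ
        have h0 := ha0 ((v / c), l)
        simp only [smul_eq_mul, hA'] at this
        nlinarith
      have hupP : (v, c * h + θ * τ) ∈ P := by
        rw [hv1]; exact hconv hhmem hτp hc0.le hθ0.le hcθ
      have hloP : (v, c * l - θ * τ) ∈ P := by
        rw [hv2]; exact hconv hlmem hτm hc0.le hθ0.le hcθ
      have hsub : Icc (c * l - θ * τ) (c * h + θ * τ) ⊆ Prod.mk v ⁻¹' {w | θ * A ≤ a w} := by
        intro s hs
        simp only [mem_preimage, Set.mem_ofPred_eq]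
        have hlen : 0 ≤ (c * h + θ * τ) - (c * l - θ * τ) := by
          have := mul_le_mul_of_nonneg_left hle hc0.le
          have hθτ : 0 ≤ θ * τ := mul_nonneg hθ0.le hτ0
          linarith
        rcases eq_or_lt_of_le hlen with hzero | hpos
        · have hs1 : s = c * h + θ * τ := by
            have := hs.1; have := hs.2; linarith
          rw [hs1]; exact hup
        · set d := (c * h + θ * τ) - (c * l - θ * τ) with hd
          set p := (s - (c * l - θ * τ)) / d with hp
          have hp0 : 0 ≤ p := div_nonneg (by linarith [hs.1]) hpos.le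
          have hp1 : p ≤ 1 := by
            rw [hp, div_le_one hpos]; linarith [hs.2]
          have hmix : (v, s) = p • (v, c * h + θ * τ) + (1 - p) • (v, c * l - θ * τ) := by
            have hps : p * d = s - (c * l - θ * τ) := by
              rw [hp]; field_simp
            ext
            · simp only [Prod.smul_mk, Prod.mk_add_mk, smul_eq_mul]
              ring
            · simp only [Prod.smul_mk, Prod.mk_add_mk, smul_eq_mul]
              rw [hd] at hps
              nlinarith
          rw [hmix]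
          have hp1' : 0 ≤ 1 - p := by linarith
          have := ha_conc.2 hupP hloP hp0 hp1' (add_sub_cancel p 1)
          simp only [smul_eq_mul] at this
          have h3 := mul_le_mul_of_nonneg_left hup hp0
          have h4 := mul_le_mul_of_nonneg_left hlo hp1'
          have h5 : p * (θ * A) + (1 - p) * (θ * A) = θ * A := by ring
          linarith
      calc ENNReal.ofReal c * ENNReal.ofReal (h - l) + ENNReal.ofReal (2 * θ * τ)
          = ENNReal.ofReal (c * (h - l) + 2 * θ * τ) := by
            rw [ENNReal.ofReal_add (mul_nonneg hc0.le (by linarith))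
              (by positivity), ENNReal.ofReal_mul hc0.le]
        _ = ENNReal.ofReal ((c * h + θ * τ) - (c * l - θ * τ)) := by
            congr 1; ring
        _ = volume (Icc (c * l - θ * τ) (c * h + θ * τ)) := by rw [Real.volume_Icc]
        _ ≤ _ := measure_mono hsub
    · rw [indicator_of_notMem hv, add_zero]
      have hempty : Prod.mk (v / c) ⁻¹' P = ∅ := by
        ext s
        simp only [mem_preimage, mem_empty_iff_false, iff_false]
        intro hs
        exact hv ⟨((v / c), s), hs, rfl⟩
      simp [hempty]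
  -- integrate
  have hmeasℓ : Measurable fun v => volume (Prod.mk v ⁻¹' P) :=
    measurable_measure_prodMk_left hm
  have hint : ∫⁻ v, (ENNReal.ofReal c * volume (Prod.mk (v / c) ⁻¹' P)
      + (Prod.fst '' P).indicator (fun _ => ENNReal.ofReal (2 * θ * τ)) (v / c))
      = ENNReal.ofReal c * (ENNReal.ofReal c * volume P)
        + ENNReal.ofReal c * (ENNReal.ofReal (2 * θ * τ) * volume (Prod.fst '' P)) := by
    have h1 : Measurable fun v : ℝ => ENNReal.ofReal c * volume (Prod.mk (v / c) ⁻¹' P) :=
      (hmeasℓ.comp (by fun_prop)).const_mul _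
    have h1' : Measurable fun v : ℝ => volume (Prod.mk (v / c) ⁻¹' P) :=
      hmeasℓ.comp (measurable_id.div_const c)
    rw [lintegral_add_left h1, lintegral_const_mul _ h1']
    rw [lintegral_comp_div hmeasℓ hc0]
    have h2 := lintegral_comp_div (g := (Prod.fst '' P).indicator
      (fun _ => ENNReal.ofReal (2 * θ * τ)))
      ((measurable_const).indicator hsh) hc0
    rw [h2, lintegral_indicator hsh, setLIntegral_const]
    rw [Measure.volume_eq_prod, Measure.prod_apply hm]
  have hshadow := volume_le_two_mul_shadow hc hconv hsymm hmax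
  calc ENNReal.ofReal (c ^ 2 + τ * θ * c) * volume P
      = ENNReal.ofReal c * (ENNReal.ofReal c * volume P)
        + ENNReal.ofReal c * (ENNReal.ofReal (θ * τ) * volume P) := by
        rw [ENNReal.ofReal_add (by positivity) (by positivity), add_mul, sq,
          ENNReal.ofReal_mul hc0.le, mul_assoc]
        congr 1
        have : τ * θ * c = c * (θ * τ) := by ring
        rw [this, ENNReal.ofReal_mul hc0.le, mul_assoc]
    _ ≤ ENNReal.ofReal c * (ENNReal.ofReal c * volume P)
        + ENNReal.ofReal c * (ENNReal.ofReal (2 * θ * τ) * volume (Prod.fst '' P)) := by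
        refine add_le_add le_rfl (mul_le_mul_right ?_ _)
        calc ENNReal.ofReal (θ * τ) * volume P
            ≤ ENNReal.ofReal (θ * τ) * (2 * volume (Prod.fst '' P)) :=
              mul_le_mul_right hshadow _
          _ = ENNReal.ofReal (2 * θ * τ) * volume (Prod.fst '' P) := by
            have h2θτ : ENNReal.ofReal (2 * θ * τ) = ENNReal.ofReal (θ * τ) * 2 := by
              have : 2 * θ * τ = (θ * τ) * 2 := by ring
              rw [this, ENNReal.ofReal_mul (mul_nonneg hθ0.le hτ0), ENNReal.ofReal_ofNat]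
            rw [h2θτ, mul_assoc]
    _ = ∫⁻ v, (ENNReal.ofReal c * volume (Prod.mk (v / c) ⁻¹' P)
      + (Prod.fst '' P).indicator (fun _ => ENNReal.ofReal (2 * θ * τ)) (v / c)) := hint.symm
    _ ≤ ∫⁻ v, volume (Prod.mk v ⁻¹' {w | θ * A ≤ a w}) := lintegral_mono hfib
    _ = volume {w | θ * A ≤ a w} := by
        rw [Measure.volume_eq_prod, Measure.prod_apply hlev]

/-- The integral of the level-area profile. -/
theorem integral_profile {A τ : ℝ} (hA : 0 < A) :
    ∫ t in (0 : ℝ)..A, ((1 - t / A) ^ 2 + τ * (t / A) * (1 - t / A)) = A * (2 + τ) / 6 := by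
  have hder : ∀ t ∈ uIcc (0 : ℝ) A, HasDerivAt
      (fun t : ℝ => t - t ^ 2 / A + t ^ 3 / (3 * A ^ 2) + τ * (t ^ 2 / (2 * A) - t ^ 3 / (3 * A ^ 2)))
      ((1 - t / A) ^ 2 + τ * (t / A) * (1 - t / A)) t := by
    intro t _
    have hA' : A ≠ 0 := hA.ne'
    have h1 : HasDerivAt (fun t : ℝ => t ^ 2) (2 * t) t := by
      simpa using hasDerivAt_pow 2 t
    have h2 : HasDerivAt (fun t : ℝ => t ^ 3) (3 * t ^ 2) t := by
      simpa using hasDerivAt_pow 3 t
    have h0 : HasDerivAt (fun t : ℝ => t) 1 t := hasDerivAt_id' t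
    have h3 : HasDerivAt (fun t : ℝ => t - t ^ 2 / A + t ^ 3 / (3 * A ^ 2)
        + τ * (t ^ 2 / (2 * A) - t ^ 3 / (3 * A ^ 2)))
        (1 - 2 * t / A + 3 * t ^ 2 / (3 * A ^ 2)
          + τ * (2 * t / (2 * A) - 3 * t ^ 2 / (3 * A ^ 2))) t :=
      ((h0.sub (h1.div_const A)).add (h2.div_const (3 * A ^ 2))).add
        (((h1.div_const (2 * A)).sub (h2.div_const (3 * A ^ 2))).const_mul τ)
    refine h3.congr_deriv ?_
    field_simp
    ring
  rw [intervalIntegral.integral_eq_sub_of_hasDerivAt hder]
  · field_simp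
    ring
  · apply Continuous.intervalIntegrable
    fun_prop

/-- The planar key inequality. -/
theorem planar_key {P : Set (ℝ × ℝ)} (hc : IsCompact P) (hconv : Convex ℝ P)
    (hsymm : ∀ x ∈ P, -x ∈ P) (hmax : ∀ l : ℝ, 1 < l → ((0 : ℝ), l) ∉ P)
    {a : ℝ × ℝ → ℝ} (ha_meas : Measurable a) (ha0 : ∀ w, 0 ≤ a w)
    (ha_conc : ConcaveOn ℝ P a)
    {τ A : ℝ} (hτ0 : 0 ≤ τ) (hτp : ((0 : ℝ), τ) ∈ P) (hA : a (0, τ) = A)
    (hA' : a (0, -τ) = A) :
    ENNReal.ofReal (A * (2 + τ) / 6) * volume P ≤ ∫⁻ w, ENNReal.ofReal (a w) := by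
  have hA0 : 0 ≤ A := hA ▸ ha0 _
  rcases hA0.eq_or_lt with hzero | hpos
  · rw [← hzero]; simp
  set g : ℝ → ℝ := fun t => (1 - t / A) ^ 2 + τ * (t / A) * (1 - t / A) with hg
  have hgc : Continuous g := by rw [hg]; fun_prop
  have hg0 : ∀ t ∈ Ioo 0 A, 0 ≤ g t := by
    intro t ht
    have h1 : 0 ≤ t / A := div_nonneg ht.1.le hpos.le
    have h2 : 0 ≤ 1 - t / A := by
      rw [sub_nonneg, div_le_one hpos]; exact ht.2.le
    simp only [hg]
    positivity
  have hcake := lintegral_eq_lintegral_meas_le (volume : Measure (ℝ × ℝ)) (f := a)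
    (Filter.Eventually.of_forall ha0) ha_meas.aemeasurable
  rw [hcake]
  calc ENNReal.ofReal (A * (2 + τ) / 6) * volume P
      = (∫⁻ t in Ioo 0 A, ENNReal.ofReal (g t)) * volume P := by
        congr 1
        rw [← ofReal_integral_eq_lintegral_ofReal]
        · congr 1
          rw [← integral_profile (τ := τ) hpos, intervalIntegral.integral_of_le hpos.le,
            integral_Ioc_eq_integral_Ioo]
        · exact (hgc.integrableOn_Icc.mono_set Ioo_subset_Icc_self)
        · exact (ae_restrict_iff' measurableSet_Ioo).2 (Filter.Eventually.of_forall hg0)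
    _ = ∫⁻ t in Ioo 0 A, ENNReal.ofReal (g t) * volume P := by
        rw [lintegral_mul_const _ (by fun_prop)]
    _ ≤ ∫⁻ t in Ioo 0 A, volume {x | t ≤ a x} := by
        apply setLIntegral_mono' measurableSet_Ioo
        intro t ht
        have hθ0 : 0 < t / A := div_pos ht.1 hpos
        have hθ1 : t / A < 1 := by rw [div_lt_one hpos]; exact ht.2
        have := level_area hc hconv hsymm hmax ha_meas ha0 ha_conc hτ0 hθ0 hθ1 hτp hA hA'
        have hcancel : t / A * A = t := by field_simp
        rw [hcancel] at this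
        exact this
    _ ≤ ∫⁻ t in Ioi 0, volume {x | t ≤ a x} :=
        lintegral_mono_set Ioo_subset_Ioi_self

end Vale.Agent.Lib.P243
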